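import Mathlib

/-! P199, task DENS: density of the span of right multiplications over a maximal subfield. -/

namespace Vale.Agent.H78

theorem exists_mem_span_mulRight_apply_eq {K D : Type*} [Field K] [DivisionRing D] [Module K D]
    [IsScalarTower K D D]
    (hmax : ∀ c : D, (∀ k : K, c * (k • (1 : D)) = (k • (1 : D)) * c) → ∃ k : K, k • (1 : D) = c)
    {m : ℕ} (v : Fin m → D) (hv : LinearIndependent K v) (w : Fin m → D) :
    ∃ φ ∈ Submodule.span K (Set.range (LinearMap.mulRight K : D → Module.End K D)),
      ∀ k, φ (v k) = w k := by
  have hgen : ∀ x : D, LinearMap.mulRight K x ∈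
      Submodule.span K (Set.range (LinearMap.mulRight K : D → Module.End K D)) :=
    fun x => Submodule.subset_span ⟨x, rfl⟩
  have hcomp : ∀ (e : D) (φ : Module.End K D),
      φ ∈ Submodule.span K (Set.range (LinearMap.mulRight K : D → Module.End K D)) →
      LinearMap.mulRight K e * φ ∈
        Submodule.span K (Set.range (LinearMap.mulRight K : D → Module.End K D)) := by
    intro e φ hφ
    induction hφ using Submodule.span_induction with
    | mem x hx =>
      obtain ⟨y, rfl⟩ := hx
      have : LinearMap.mulRight K e * LinearMap.mulRight K y = LinearMap.mulRight K (y * e) := by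
        ext z
        simp [mul_assoc]
      rw [this]
      exact hgen _
    | zero =>
      rw [mul_zero]
      exact Submodule.zero_mem _
    | add x y _ _ hx hy =>
      rw [mul_add]
      exact Submodule.add_mem _ hx hy
    | smul a x _ hx =>
      rw [mul_smul_comm]
      exact Submodule.smul_mem _ a hx
  have hone : (1 : Module.End K D) ∈
      Submodule.span K (Set.range (LinearMap.mulRight K : D → Module.End K D)) := by
    have : LinearMap.mulRight K (1 : D) = 1 := by
      ext z
      simp
    rw [← this]
    exact hgen 1
  have key : ∀ (m : ℕ) (v : Fin m → D), LinearIndependent K v → ∀ w : Fin m → D,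
      ∃ φ ∈ Submodule.span K (Set.range (LinearMap.mulRight K : D → Module.End K D)),
        ∀ k, φ (v k) = w k := by
    intro m
    induction m with
    | zero =>
      intro v _ w
      exact ⟨0, Submodule.zero_mem _, fun k => k.elim0⟩
    | succ m ih =>
      intro v hv w
      have hv'li : LinearIndependent K (fun k : Fin m => v (Fin.castSucc k)) :=
        hv.comp Fin.castSucc (Fin.castSucc_injective m)
      by_cases hcase : ∃ φ0 ∈ Submodule.span K
          (Set.range (LinearMap.mulRight K : D → Module.End K D)),
          (∀ k : Fin m, φ0 (v (Fin.castSucc k)) = 0) ∧ φ0 (v (Fin.last m)) ≠ 0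
      · obtain ⟨φ0, hφ0, hz, ht⟩ := hcase
        obtain ⟨φ1, hφ1, h1⟩ := ih _ hv'li (fun k => w (Fin.castSucc k))
        refine ⟨φ1 + LinearMap.mulRight K
          ((φ0 (v (Fin.last m)))⁻¹ * (w (Fin.last m) - φ1 (v (Fin.last m)))) * φ0,
          Submodule.add_mem _ hφ1 (hcomp _ _ hφ0), ?_⟩
        intro k
        refine Fin.lastCases ?_ (fun j => ?_) k
        · simp only [LinearMap.add_apply, Module.End.mul_apply, LinearMap.mulRight_apply]
          rw [← mul_assoc, mul_inv_cancel₀ ht, one_mul]
          abel
        · simp only [LinearMap.add_apply, Module.End.mul_apply, LinearMap.mulRight_apply]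
          rw [hz j, h1 j, zero_mul, add_zero]
      · exfalso
        have hcase' : ∀ φ0 ∈ Submodule.span K
            (Set.range (LinearMap.mulRight K : D → Module.End K D)),
            (∀ k : Fin m, φ0 (v (Fin.castSucc k)) = 0) → φ0 (v (Fin.last m)) = 0 := by
          intro φ0 h1 h2
          by_contra h3
          exact hcase ⟨φ0, h1, h2, h3⟩
        choose φ hφA hφ using fun j : Fin m =>
          ih _ hv'li (fun k => if k = j then (1 : D) else 0)
        have star : ∀ ψ ∈ Submodule.span K
            (Set.range (LinearMap.mulRight K : D → Module.End K D)),
            ψ (v (Fin.last m)) = ∑ j, φ j (v (Fin.last m)) * ψ (v (Fin.castSucc j)) := by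
          intro ψ hψ
          have hmem : ψ - ∑ j, LinearMap.mulRight K (ψ (v (Fin.castSucc j))) * φ j ∈
              Submodule.span K (Set.range (LinearMap.mulRight K : D → Module.End K D)) :=
            Submodule.sub_mem _ hψ (Submodule.sum_mem _ (fun j _ => hcomp _ _ (hφA j)))
          have hkill : ∀ k : Fin m,
              (ψ - ∑ j, LinearMap.mulRight K (ψ (v (Fin.castSucc j))) * φ j)
                (v (Fin.castSucc k)) = 0 := by
            intro k
            simp only [LinearMap.sub_apply, LinearMap.sum_apply, Module.End.mul_apply,
              LinearMap.mulRight_apply, hφ]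
            simp
          have h0 := hcase' _ hmem hkill
          simp only [LinearMap.sub_apply, LinearMap.sum_apply, Module.End.mul_apply,
            LinearMap.mulRight_apply] at h0
          exact sub_eq_zero.mp h0
        have hcent : ∀ i, ∃ γ : K, γ • (1 : D) = φ i (v (Fin.last m)) := by
          intro i
          apply hmax
          intro κ
          have h := star (κ • φ i) (Submodule.smul_mem _ κ (hφA i))
          simp only [LinearMap.smul_apply, hφ] at h
          rw [Finset.sum_eq_single i] at h
          · rw [if_pos rfl, ← smul_one_mul κ (φ i (v (Fin.last m)))] at h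
            exact h.symm
          · intro j _ hji
            rw [if_neg hji, smul_zero, mul_zero]
          · intro hi
            exact absurd (Finset.mem_univ i) hi
        choose γ hγ using hcent
        have hlast : v (Fin.last m) = ∑ j, γ j • v (Fin.castSucc j) := by
          have h := star 1 hone
          simp only [Module.End.one_apply] at h
          rw [h]
          refine Finset.sum_congr rfl (fun j _ => ?_)
          rw [← hγ j, smul_one_mul]
        have hli := (Fintype.linearIndependent_iff.mp hv) (Fin.lastCases (-1) γ) (by
          rw [Fin.sum_univ_castSucc]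
          simp only [Fin.lastCases_last, Fin.lastCases_castSucc]
          rw [hlast]
          simp) (Fin.last m)
        simp at hli
  exact key m v hv w

end Vale.Agent.H78
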